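import Vale.Agent.P331.F.Rows

/-!
# RowC (A6c) : use of QJRL for every fixed pool
-/

set_option autoImplicit false
set_option linter.unusedSectionVars false

namespace Vale.Agent.P331.H550

open Finset Vale.Agent.P331.H489 Vale.Agent.P331.H250

section

variable {E : Type*} [Fintype E] [DecidableEq E]

/-- a pool inside the sample: two exclusive thinnings -/
theorem TH_sub (r q : E → ℝ) (S : Finset E) (F : Finset E → Finset E → ℝ) :
    TH r S (fun R => TH q R (fun G => F G (R \ G))) =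
      T2 (fun e => r e * q e) (fun e => r e * (1 - q e)) S F := by
  let k : E → Bool → Bool → ℝ := fun e c b =>
    if c = true then (if b then q e else 1 - q e) else (if b then 0 else 1)
  let g : Bool × Bool → Option Bool := fun x =>
    if x.2 = true then some true else if x.1 = true then some false else none
  have h1 : TH r S (fun R => TH q R (fun G => F G (R \ G))) =
      EX (bw r S) (fun ω => EX (fun e => k e (ω e))
        (fun ω' => (fun κ : E → Option Bool => F (lset (some true) κ)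
      (lset (some false) κ)) (fun e => g (ω e, ω' e)))) := by
    unfold TH
    refine EX_congr (fun _ _ => rfl) fun ω => EX_congr (fun e b => ?_) fun ω' => ?_
    · simp only [bw, k, mem_tset]
    · show F (tset ω') (tset ω \ tset ω') = F (lset (some true) (fun e => g (ω e, ω' e)))
        (lset (some false) (fun e => g (ω e, ω' e)))
      congr 1
      · ext e
        simp only [mem_tset, mem_lset, g]
        by_cases h2 : ω' e = true
        · simp [h2]
        · by_cases h1 : ω e = true <;> simp [h1, h2]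
      · ext e
        simp only [mem_tset, mem_lset, mem_sdiff, g]
        by_cases h2 : ω' e = true
        · simp [h2]
        · by_cases h1 : ω e = true <;> simp [h1, h2]
  rw [h1, EX_bind_map (bw r S) k g (fun κ : E → Option Bool => F (lset (some true) κ)
      (lset (some false) κ))]
  unfold T2
  refine EX_congr (fun e c => ?_) fun _ => rfl
  rw [sum_filter, Fintype.sum_prod_type, Fintype.sum_bool, Fintype.sum_bool, Fintype.sum_bool]
  by_cases he : e ∈ S
  · rcases c with _ | _ | _ <;> simp [bw, bw2, k, g, he] <;> ring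
  · rcases c with _ | _ | _ <;> simp [bw, bw2, k, g, he]

/-- exchange of a pool inside the sample and of the test set -/
theorem reorder {c q ρ' v b : ℝ} (U : Finset E) (hv : (1 - c) * (ρ' * q) = c)
    (hv2 : (1 - c) * v = c) (hb : (1 - ρ' * q) * b = ρ' * (1 - q))
    (Φ : Finset E → Finset E → Finset E → ℝ) :
    TH (fun _ => c) U (fun X => TH (fun _ => ρ') (U \ X) (fun R => TH (fun _ => q) R
      (fun G => Φ X G (R \ G)))) =
    TH (fun _ => c) U (fun G => TH (fun _ => v) (U \ G) (fun X =>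
      TH (fun _ => b) ((U \ G) \ X) (fun R => Φ X G R))) := by
  have h1 : ∀ X : Finset E, TH (fun _ => ρ') (U \ X) (fun R => TH (fun _ => q) R
      (fun G => Φ X G (R \ G))) = TH (fun _ => ρ' * q) (U \ X) (fun G =>
        TH (fun _ => b) ((U \ G) \ X) (fun R => Φ X G R)) := by
    intro X
    rw [TH_sub (fun _ => ρ') (fun _ => q) (U \ X) (fun G R => Φ X G R)]
    have h2 : ∀ G : Finset E, (U \ G) \ X = (U \ X) \ G := fun G => sdiff_right_comm _ _ _
    simp only [h2]
    rw [TH_TH (fun _ => ρ' * q) (fun _ => b) (U \ X) (fun G R => Φ X G R)]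
    exact T2_congr_rates (fun _ _ => rfl) (fun _ _ => hb.symm) _
  simp only [h1]
  rw [TH_TH_swap (fun _ => c) (fun _ => ρ' * q) (fun _ => c) (fun _ => v) U
    (fun _ _ => hv) (fun _ _ => hv2)]

end

end Vale.Agent.P331.H550

namespace Vale.Agent.P331.F.H550

open Finset Vale.Agent.P331.H489 Vale.Agent.P331.H250
open scoped Classical

section

variable {E : Type} [Fintype E]

theorem ind_nonneg (P : Prop) : 0 ≤ ind P := by unfold ind; split_ifs <;> norm_num

theorem ind_le_one (P : Prop) : ind P ≤ 1 := by unfold ind; split_ifs <;> norm_num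

theorem ind_pos {P : Prop} (h : P) : ind P = 1 := if_pos h

theorem ind_neg {P : Prop} (h : ¬ P) : ind P = 0 := if_neg h

/-- the event for a fixed pool -/
noncomputable def Phi (D : Finset E → Prop) (κ : ℕ) (θ θ' δ a : ℝ) (X G R : Finset E) : ℝ :=
  ind ((∃ Y ⊆ X, Y.card ≤ κ ∧ Th θ R (fun N => ind (¬ D (Y ∪ G ∪ N))) ≤ δ) ∧
    a < Th θ' R (fun N => ind (¬ D (X ∪ G ∪ N))))

theorem point {g n a δ : ℝ} (hg : 0 < g) (hg1 : g ≤ 1 / 4) (hn : g ≤ n) (hn1 : n ≤ 1 / 8)
    (ha : 0 < a) (κ : ℕ) (D : Finset E → Prop) (X R : Finset E)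
    (h : Fam (g / (1 - g)) (n / (1 - 2 * g)) a κ δ D R X ∧
        ¬ Th (n / (1 - g)) R (fun N => ind (¬ D (X ∪ N))) ≤ 3 * a) :
    a ≤ TH (fun _ => g / (1 - g)) R (fun G =>
      Phi D κ (n / (1 - 2 * g)) (n / (1 - 2 * g) * (1 - g / n)) δ a X G (R \ G)) := by
  obtain ⟨h1, h2⟩ := h
  push Not at h2
  have hn0 : 0 < n := lt_of_lt_of_le hg hn
  have q0 : ∀ e : E, 0 ≤ (fun _ : E => g / (1 - g)) e := fun _ => by
    show 0 ≤ g / (1 - g)
    exact div_nonneg hg.le (by linarith)
  have q1 : ∀ e : E, (fun _ : E => g / (1 - g)) e ≤ 1 := fun _ => by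
    show g / (1 - g) ≤ 1
    rw [div_le_one (by linarith)]
    linarith
  set t' : ℝ := n / (1 - 2 * g) * (1 - g / n) with ht'
  have ht'' : t' = (n - g) / (1 - 2 * g) := by
    rw [ht']
    have : (1 - 2 * g) ≠ 0 := by linarith
    field_simp
  have t0 : 0 ≤ t' := by
    rw [ht'']
    exact div_nonneg (by linarith) (by linarith)
  have t1 : t' ≤ 1 := by
    rw [ht'', div_le_one (by linarith)]
    linarith
  let b : Finset E → ℝ := fun G => TH (fun _ => t') (R \ G) (fun N => ind (¬ D (X ∪ (G ∪ N))))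
  have hb1 : ∀ G, b G ≤ 1 := by
    intro G
    calc b G ≤ TH (fun _ => t') (R \ G) (fun _ => (1 : ℝ)) :=
          TH_mono (fun _ => t0) (fun _ => t1) _ fun N _ => ind_le_one _
      _ = 1 := TH_const _ _ _
  have hu : TH (fun _ => g / (1 - g)) R b =
      Th (n / (1 - g)) R (fun N => ind (¬ D (X ∪ N))) := by
    refine TH_TH_union (fun _ => g / (1 - g)) (fun _ => t') (fun _ => n / (1 - g)) R
      (fun _ _ => ?_) (fun N => ind (¬ D (X ∪ N)))
    show g / (1 - g) + (1 - g / (1 - g)) * t' = n / (1 - g)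
    rw [ht'']
    have e1 : (1 - g) ≠ 0 := by linarith
    have e2 : (1 - 2 * g) ≠ 0 := by linarith
    have e3 : 1 - g / (1 - g) = (1 - 2 * g) / (1 - g) := by
      field_simp
      ring
    rw [e3, div_mul_div_comm, mul_comm (1 - 2 * g) (n - g), mul_div_mul_right _ _ e2, ← add_div]
    congr 1
    ring
  have hpt : ∀ G, G ⊆ R → b G - a - ind (¬ ∃ Y ⊆ X, Y.card ≤ κ ∧
      Th (n / (1 - 2 * g)) (R \ G) (fun N => ind (¬ D (Y ∪ G ∪ N))) ≤ δ) ≤
      Phi D κ (n / (1 - 2 * g)) t' δ a X G (R \ G) := by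
    intro G _
    have e1 : Th t' (R \ G) (fun N => ind (¬ D (X ∪ G ∪ N))) = b G := by
      show TH _ _ _ = TH _ _ _
      congr 1
      funext N
      rw [union_assoc]
    unfold Phi
    rw [e1]
    by_cases c1 : ∃ Y ⊆ X, Y.card ≤ κ ∧
      Th (n / (1 - 2 * g)) (R \ G) (fun N => ind (¬ D (Y ∪ G ∪ N))) ≤ δ
    · rw [ind_neg (not_not.2 c1)]
      by_cases c2 : a < b G
      · rw [ind_pos ⟨c1, c2⟩]
        linarith [hb1 G]
      · rw [ind_neg (fun h => c2 h.2)]
        linarith
    · rw [ind_pos c1, ind_neg (fun h => c1 h.1)]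
      linarith [hb1 G]
  have h3 := TH_mono q0 q1 R hpt
  rw [Vale.Agent.P331.H250.TH_sub, Vale.Agent.P331.H250.TH_sub, TH_const, hu] at h3
  have h4 : TH (fun _ => g / (1 - g)) R (fun G => ind (¬ ∃ Y ⊆ X, Y.card ≤ κ ∧
      Th (n / (1 - 2 * g)) (R \ G) (fun N => ind (¬ D (Y ∪ G ∪ N))) ≤ δ)) ≤ a := h1
  linarith

end

theorem rowC : RowC := by
  intro p g n lam hp hp1 hg hgn hn1 hlam hQ E _ D hD κ δ a hδ ha
  have hg2 : g ≤ 1 / 32 := by linarith
  have hn0 : 0 < n := by linarith
  set c : ℝ := (1 - p) * g with hc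
  have hc0 : 0 < c := mul_pos (by linarith) hg
  have hc1 : c ≤ 1 / 32 := by nlinarith
  set ρ' : ℝ := (1 - p) * (1 - g) / (1 - c) with hρ'
  have hρ0 : 0 ≤ ρ' := div_nonneg (mul_nonneg (by linarith) (by linarith)) (by linarith)
  have hρ1 : ρ' ≤ 1 := by
    rw [hρ', div_le_one (by linarith), hc]
    nlinarith
  set q : ℝ := g / (1 - g) with hq
  have hq0 : 0 ≤ q := div_nonneg hg.le (by linarith)
  have hq1 : q ≤ 1 := by
    rw [hq, div_le_one (by linarith)]
    linarith
  have n1 : (1 - c) ≠ 0 := by linarith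
  have n2 : (1 - g) ≠ 0 := by linarith
  have n3 : (1 - 2 * g) ≠ 0 := by linarith
  have n4 : (1 - 2 * c) ≠ 0 := by linarith
  have n5 : n ≠ 0 := hn0.ne'
  set v : ℝ := c / (1 - c) with hv
  set ρ : ℝ := (1 - p) * (1 - 2 * g) / (1 - c) with hρ
  have hρp : 0 < ρ := div_pos (mul_pos (by linarith) (by linarith)) (by linarith)
  have e1 : ρ' * q = v := by
    rw [hρ', hq, hv, hc]
    field_simp
  have e2 : (1 - c) * (ρ' * q) = c := by
    rw [e1, hv]
    field_simp
  have e3 : (1 - c) * v = c := by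
    rw [hv]
    field_simp
  have e0 : 1 - v = (1 - 2 * c) / (1 - c) := by
    rw [hv]
    field_simp
    ring
  have v1 : (1 - v) ≠ 0 := by
    rw [e0]
    exact div_ne_zero n4 n1
  have e4 : (1 - ρ' * q) * (ρ / (1 - v)) = ρ' * (1 - q) := by
    rw [e1, mul_div_cancel₀ _ v1, hρ, hρ', hq]
    field_simp
    ring
  have e5 : v = ρ * (g / n) * (n / (1 - 2 * g)) := by
    rw [hρ, hv, div_mul_div_comm, div_mul_div_comm,
      div_eq_div_iff n1 (mul_ne_zero (mul_ne_zero n1 n5) n3), hc]
    ring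
  have e6 : v + ρ ≤ 1 := by
    rw [hv, hρ, ← add_div, div_le_one (by linarith), hc]
    nlinarith
  have c0 : ∀ e : E, 0 ≤ (fun _ : E => c) e := fun _ => hc0.le
  have c1 : ∀ e : E, (fun _ : E => c) e ≤ 1 := fun _ => by
    show c ≤ 1
    linarith
  have hbd : ∀ G : Finset E, TH (fun _ => v) (univ \ G) (fun X =>
      TH (fun _ => ρ / (1 - v)) ((univ \ G) \ X) (fun R =>
        Phi D κ (n / (1 - 2 * g)) (n / (1 - 2 * g) * (1 - g / n)) δ a X G R)) ≤
      (lam ^ κ * δ) ^ 7 / a ^ 16 := by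
    intro G
    have h1 := hQ E (fun A => D (A ∪ G)) (fun A B hAB h => hD _ _ (union_subset_union_left hAB) h)
      (univ \ G) v ρ hρp e5 e6 κ δ a hδ ha
    have h2 : ∀ X R : Finset E, Phi D κ (n / (1 - 2 * g)) (n / (1 - 2 * g) * (1 - g / n)) δ a
        X G R = ind ((∃ Y ⊆ X, Y.card ≤ κ ∧
          Th (n / (1 - 2 * g)) R (fun N => ind (¬ D (Y ∪ N ∪ G))) ≤ δ) ∧
        a < Th (n / (1 - 2 * g) * (1 - g / n)) R (fun N => ind (¬ D (X ∪ N ∪ G)))) := by
      intro X R
      unfold Phi
      have : ∀ Y N : Finset E, Y ∪ G ∪ N = Y ∪ N ∪ G := fun Y N => union_right_comm Y G N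
      simp only [this]
    simp only [h2]
    exact h1
  have hmain : a * Th c univ (fun X => Th ρ' (univ \ X)
      (fun R => ind (Fam q (n / (1 - 2 * g)) a κ δ D R X ∧
        ¬ Th (n / (1 - g)) R (fun N => ind (¬ D (X ∪ N))) ≤ 3 * a))) ≤
      (lam ^ κ * δ) ^ 7 / a ^ 16 := by
    calc a * Th c univ (fun X => Th ρ' (univ \ X)
      (fun R => ind (Fam q (n / (1 - 2 * g)) a κ δ D R X ∧
        ¬ Th (n / (1 - g)) R (fun N => ind (¬ D (X ∪ N))) ≤ 3 * a)))
        = TH (fun _ => c) univ (fun X => TH (fun _ => ρ') (univ \ X)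
      (fun R => a * ind (Fam q (n / (1 - 2 * g)) a κ δ D R X ∧
        ¬ Th (n / (1 - g)) R (fun N => ind (¬ D (X ∪ N))) ≤ 3 * a))) := by
          unfold Th
          rw [← TH_mul]
          congr 1
          funext X
          rw [← TH_mul]
      _ ≤ TH (fun _ => c) univ (fun X => TH (fun _ => ρ') (univ \ X) (fun R =>
          TH (fun _ => q) R (fun G => Phi D κ (n / (1 - 2 * g))
            (n / (1 - 2 * g) * (1 - g / n)) δ a X G (R \ G)))) := by
          refine TH_mono c0 c1 _ fun X _ => TH_mono (fun _ => hρ0) (fun _ => hρ1) _ fun R _ => ?_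
          by_cases h : Fam q (n / (1 - 2 * g)) a κ δ D R X ∧
            ¬ Th (n / (1 - g)) R (fun N => ind (¬ D (X ∪ N))) ≤ 3 * a
          · rw [ind_pos h, mul_one]
            exact point hg (by linarith) (by linarith) hn1 ha κ D X R h
          · rw [ind_neg h, mul_zero]
            exact TH_nonneg (fun _ => hq0) (fun _ => hq1) _ fun G _ => ind_nonneg _
      _ = TH (fun _ => c) univ (fun G => TH (fun _ => v) (univ \ G) (fun X =>
          TH (fun _ => ρ / (1 - v)) ((univ \ G) \ X) (fun R =>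
            Phi D κ (n / (1 - 2 * g)) (n / (1 - 2 * g) * (1 - g / n)) δ a X G R))) :=
          Vale.Agent.P331.H550.reorder univ e2 e3 e4 _
      _ ≤ TH (fun _ => c) univ (fun _ => (lam ^ κ * δ) ^ 7 / a ^ 16) :=
          TH_mono c0 c1 _ fun G _ => hbd G
      _ = (lam ^ κ * δ) ^ 7 / a ^ 16 := TH_const _ _ _
  have h17 : (lam ^ κ * δ) ^ 7 / a ^ 17 = (lam ^ κ * δ) ^ 7 / a ^ 16 / a := by
    rw [div_div, ← pow_succ]
  rw [h17, le_div_iff₀ ha, mul_comm]
  exact hmain

end Vale.Agent.P331.F.H550
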